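import Vale.Agent.P205.FIN
import Vale.Agent.P205.IVT

/-!
# P205: smooth isometric immersions into `ℝ⁴` of all tori with a circle-invariant metric
-/

namespace Vale.Agent.Results.P205.CircleInvariantTorus

/-- Every smooth Riemannian metric `E dx² + 2 F dx dy + G dy²` on the torus `ℝ²/ℤ²` whose
coefficients depend on `x` only (a metric invariant under the circle of translations in `y`) has a
smooth isometric immersion into Euclidean `ℝ⁴`, given as a smooth doubly periodic map on `ℝ²`. -/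
theorem result (E F G : ℝ → ℝ) (hE : ContDiff ℝ (⊤ : ℕ∞) E) (hF : ContDiff ℝ (⊤ : ℕ∞) F)
    (hG : ContDiff ℝ (⊤ : ℕ∞) G) (pE : ∀ x, E (x + 1) = E x) (pF : ∀ x, F (x + 1) = F x)
    (pG : ∀ x, G (x + 1) = G x) (hpos : ∀ x, 0 < G x) (hdet : ∀ x, 0 < E x * G x - F x ^ 2) :
    ∃ f : ℝ × ℝ → EuclideanSpace ℝ (Fin 4), ContDiff ℝ (⊤ : ℕ∞) f ∧
      (∀ x y, f (x + 1, y) = f (x, y)) ∧ (∀ x y, f (x, y + 1) = f (x, y)) ∧
      ∀ z v w : ℝ × ℝ, inner ℝ (fderiv ℝ f z v) (fderiv ℝ f z w) =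
        E z.1 * (v.1 * w.1) + F z.1 * (v.1 * w.2 + v.2 * w.1) + G z.1 * (v.2 * w.2) := by
  obtain ⟨f, hf, p1, p2, h⟩ := Vale.P205.FIN.main Vale.P205.IVT.thm E F G hE hF hG pE pF pG
    hpos hdet
  refine ⟨f, hf, p1, p2, ?_⟩
  intro z v w
  obtain ⟨h11, h12, h22⟩ := h z
  have hv : ∀ u : ℝ × ℝ, fderiv ℝ f z u
      = u.1 • fderiv ℝ f z (1, 0) + u.2 • fderiv ℝ f z (0, 1) := by
    intro u
    rw [← map_smul, ← map_smul, ← map_add]
    congr 1
    ext <;> simp
  have h21 : inner ℝ (fderiv ℝ f z (0, 1)) (fderiv ℝ f z (1, 0)) = F z.1 := by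
    rw [real_inner_comm]
    exact h12
  rw [hv v, hv w]
  simp only [inner_add_left, inner_add_right, inner_smul_left, inner_smul_right, conj_trivial,
    h11, h12, h21, h22]
  ring

end Vale.Agent.Results.P205.CircleInvariantTorus
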