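import Vale.Agent.Results.P205.TranslationInvariantTorus
import Vale.Agent.P205.KLE

/-!
# P205: tori with translational isometries, all flat tori and all flat Klein bottles immerse
smoothly and isometrically into `ℝ⁴`
-/

namespace Vale.Agent.Results.P205.FlatAndInvariant

/-- (1) Let `g` be a smooth Riemannian metric on the torus `ℝ²/ℤ²` (a smooth `ℤ²`-periodic field of
symmetric positive definite bilinear forms on `ℝ²`) that is invariant under the translations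
`z ↦ z + t e`, `t ∈ ℝ`, for some vector `e ≠ 0`. Then it has a smooth isometric immersion into
Euclidean `ℝ⁴`.
(2) In particular every flat torus, that is, `ℝ²/ℤ²` with a constant metric `g`.
(3) Every flat Klein bottle, that is, the quotient of `ℝ²` with the metric `E dx² + G dy²`
(`E, G > 0` constant) by the group generated by `(x, y) ↦ (x + 1, y)` and
`(x, y) ↦ (-x, y + 1/2)`, has a smooth isometric immersion into Euclidean `ℝ⁴`. -/
theorem result :
    (∀ g : ℝ × ℝ → ℝ × ℝ →L[ℝ] ℝ × ℝ →L[ℝ] ℝ, ContDiff ℝ (⊤ : ℕ∞) g →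
      (∀ z v w, g z v w = g z w v) → (∀ z v, v ≠ 0 → 0 < g z v v) →
      (∀ z, g (z + (1, 0)) = g z) → (∀ z, g (z + (0, 1)) = g z) →
      (∃ e : ℝ × ℝ, e ≠ 0 ∧ ∀ (t : ℝ) (z : ℝ × ℝ), g (z + t • e) = g z) →
      ∃ f : ℝ × ℝ → EuclideanSpace ℝ (Fin 4), ContDiff ℝ (⊤ : ℕ∞) f ∧
        (∀ z, f (z + (1, 0)) = f z) ∧ (∀ z, f (z + (0, 1)) = f z) ∧
        ∀ z v w : ℝ × ℝ, inner ℝ (fderiv ℝ f z v) (fderiv ℝ f z w) = g z v w) ∧
    (∀ g : ℝ × ℝ →L[ℝ] ℝ × ℝ →L[ℝ] ℝ,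
      (∀ v w, g v w = g w v) → (∀ v, v ≠ 0 → 0 < g v v) →
      ∃ f : ℝ × ℝ → EuclideanSpace ℝ (Fin 4), ContDiff ℝ (⊤ : ℕ∞) f ∧
        (∀ z, f (z + (1, 0)) = f z) ∧ (∀ z, f (z + (0, 1)) = f z) ∧
        ∀ z v w : ℝ × ℝ, inner ℝ (fderiv ℝ f z v) (fderiv ℝ f z w) = g v w) ∧
    (∀ E G : ℝ, 0 < E → 0 < G →
      ∃ f : ℝ × ℝ → EuclideanSpace ℝ (Fin 4), ContDiff ℝ (⊤ : ℕ∞) f ∧
        (∀ x y, f (x + 1, y) = f (x, y)) ∧ (∀ x y, f (-x, y + 1 / 2) = f (x, y)) ∧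
        ∀ z v w : ℝ × ℝ, inner ℝ (fderiv ℝ f z v) (fderiv ℝ f z w) =
          E * (v.1 * w.1) + G * (v.2 * w.2)) := by
  refine ⟨?_, ?_, ?_⟩
  · rintro g hg hs hp h1 h2 ⟨e, he, hinv⟩
    exact TranslationInvariantTorus.result g hg hs hp h1 h2 e he hinv
  · intro g hs hp
    exact TranslationInvariantTorus.result (fun _ => g) contDiff_const (fun _ v w => hs v w)
      (fun _ v hv => hp v hv) (fun _ => rfl) (fun _ => rfl) (1, 0) (by simp) (fun _ _ => rfl)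
  · intro E G hE hG
    obtain ⟨f, hf, p1, p2, h⟩ := Vale.P205.KLE.klein E G hE hG
    refine ⟨f, hf, p1, p2, ?_⟩
    intro z v w
    obtain ⟨h11, h12, h22⟩ := h z
    have hv : ∀ u : ℝ × ℝ, fderiv ℝ f z u
        = u.1 • fderiv ℝ f z (1, 0) + u.2 • fderiv ℝ f z (0, 1) := by
      intro u
      rw [← map_smul, ← map_smul, ← map_add]
      congr 1
      ext <;> simp
    have h21 : inner ℝ (fderiv ℝ f z (0, 1)) (fderiv ℝ f z (1, 0)) = (0 : ℝ) := by
      rw [real_inner_comm]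
      exact h12
    rw [hv v, hv w]
    simp only [inner_add_left, inner_add_right, inner_smul_left, inner_smul_right, conj_trivial,
      h11, h12, h21, h22]
    ring

end Vale.Agent.Results.P205.FlatAndInvariant
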