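import Vale.Agent.P205.RAT
import Vale.Agent.P205.IRRB

/-!
# P205: smooth isometric immersions into `ℝ⁴` of all tori with a one-parameter group of
translational isometries
-/

namespace Vale.Agent.Results.P205.TranslationInvariantTorus
open Vale.P205

/-- Let `g` be a smooth Riemannian metric on the torus `ℝ²/ℤ²` (a smooth `ℤ²`-periodic field of
symmetric positive definite bilinear forms on `ℝ²`) that is invariant under the translations
`z ↦ z + t e`, `t ∈ ℝ`, for some vector `e ≠ 0`. Then the Riemannian torus has a smooth isometric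
immersion into Euclidean `ℝ⁴`. -/
theorem result (g : ℝ × ℝ → ℝ × ℝ →L[ℝ] ℝ × ℝ →L[ℝ] ℝ) (hg : ContDiff ℝ (⊤ : ℕ∞) g)
    (hsymm : ∀ z v w, g z v w = g z w v) (hpos : ∀ z v, v ≠ 0 → 0 < g z v v)
    (hper1 : ∀ z, g (z + (1, 0)) = g z) (hper2 : ∀ z, g (z + (0, 1)) = g z)
    (e : ℝ × ℝ) (he : e ≠ 0) (hinv : ∀ (t : ℝ) (z : ℝ × ℝ), g (z + t • e) = g z) :
    ∃ f : ℝ × ℝ → EuclideanSpace ℝ (Fin 4), ContDiff ℝ (⊤ : ℕ∞) f ∧
      (∀ z, f (z + (1, 0)) = f z) ∧ (∀ z, f (z + (0, 1)) = f z) ∧
      ∀ z v w : ℝ × ℝ, inner ℝ (fderiv ℝ f z v) (fderiv ℝ f z w) = g z v w := by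
  set a : ℝ × ℝ → ℝ := fun z => g z (1, 0) (1, 0) with ha
  set b : ℝ × ℝ → ℝ := fun z => g z (1, 0) (0, 1) with hb
  set c : ℝ × ℝ → ℝ := fun z => g z (0, 1) (0, 1) with hc
  have aC : ContDiff ℝ (⊤ : ℕ∞) a := (hg.clm_apply contDiff_const).clm_apply contDiff_const
  have bC : ContDiff ℝ (⊤ : ℕ∞) b := (hg.clm_apply contDiff_const).clm_apply contDiff_const
  have cC : ContDiff ℝ (⊤ : ℕ∞) c := (hg.clm_apply contDiff_const).clm_apply contDiff_const
  have form : ∀ z v w : ℝ × ℝ, g z v w =
      a z * (v.1 * w.1) + b z * (v.1 * w.2 + v.2 * w.1) + c z * (v.2 * w.2) := by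
    intro z v w
    have hv : v = v.1 • ((1 : ℝ), (0 : ℝ)) + v.2 • ((0 : ℝ), (1 : ℝ)) := by ext <;> simp
    have hw : w = w.1 • ((1 : ℝ), (0 : ℝ)) + w.2 • ((0 : ℝ), (1 : ℝ)) := by ext <;> simp
    have h21 : g z (0, 1) (1, 0) = b z := hsymm z _ _
    conv_lhs => rw [hv, hw]
    simp only [map_add, map_smul, ContinuousLinearMap.add_apply, ContinuousLinearMap.smul_apply,
      smul_eq_mul, h21, ha, hb, hc]
    ring
  have p1 : ∀ x y : ℝ, g (x + 1, y) = g (x, y) := by
    intro x y
    have := hper1 (x, y)
    rw [← this]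
    congr 1
    ext <;> simp
  have p2 : ∀ x y : ℝ, g (x, y + 1) = g (x, y) := by
    intro x y
    have := hper2 (x, y)
    rw [← this]
    congr 1
    ext <;> simp
  have a1 : ∀ x y, a (x + 1, y) = a (x, y) := fun x y => by simp only [ha, p1]
  have a2 : ∀ x y, a (x, y + 1) = a (x, y) := fun x y => by simp only [ha, p2]
  have b1 : ∀ x y, b (x + 1, y) = b (x, y) := fun x y => by simp only [hb, p1]
  have b2 : ∀ x y, b (x, y + 1) = b (x, y) := fun x y => by simp only [hb, p2]
  have c1 : ∀ x y, c (x + 1, y) = c (x, y) := fun x y => by simp only [hc, p1]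
  have c2 : ∀ x y, c (x, y + 1) = c (x, y) := fun x y => by simp only [hc, p2]
  have hapos : ∀ z, 0 < a z := fun z => hpos z (1, 0) (by simp)
  have hdet : ∀ z, 0 < a z * c z - b z ^ 2 := by
    intro z
    have h0 := hapos z
    have h1 := hpos z (-b z, a z) (by
      intro h
      have := congrArg Prod.snd h
      simp only [Prod.snd_zero] at this
      linarith)
    rw [form z] at h1
    have h2 : a z * (-b z * -b z) + b z * (-b z * a z + a z * -b z) + c z * (a z * a z)
        = a z * (a z * c z - b z ^ 2) := by ring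
    simp only [] at h1
    rw [h2] at h1
    exact (mul_pos_iff_of_pos_left h0).1 h1
  have key : RAT.Concl a b c := by
    have hi : ∀ t x y : ℝ, g (x + t * e.1, y + t * e.2) = g (x, y) := by
      intro t x y
      have := hinv t (x, y)
      rw [← this]
      congr 1
    by_cases h1 : e.1 = 0
    · have h2 : e.2 ≠ 0 := by
        intro h2
        exact he (Prod.ext h1 h2)
      have hj : ∀ t x y : ℝ, g (x + t * ((0 : ℤ) : ℝ), y + t * ((1 : ℤ) : ℝ)) = g (x, y) := by
        intro t x y
        have := hi (t / e.2) x y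
        rw [h1, div_mul_cancel₀ _ h2, mul_zero] at this
        rw [← this]
        simp
      exact RAT.rat a b c aC bC cC a1 a2 b1 b2 c1 c2 hapos hdet 1 0 0 1 (by norm_num)
        (fun t x y => by simp only [ha, hj]) (fun t x y => by simp only [hb, hj])
        (fun t x y => by simp only [hc, hj])
    · have hk : ∀ t x y : ℝ, g (x + t, y + t * (e.2 / e.1)) = g (x, y) := by
        intro t x y
        have := hi (t / e.1) x y
        rw [div_mul_cancel₀ _ h1] at this
        rw [← this]
        congr 2
        ring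
      by_cases hirr : Irrational (e.2 / e.1)
      · have ka : ∀ z, a z = a (0, 0) := IRRB.irr a aC.continuous a1 a2 _ hirr
          (fun t x y => by simp only [ha, hk])
        have kb : ∀ z, b z = b (0, 0) := IRRB.irr b bC.continuous b1 b2 _ hirr
          (fun t x y => by simp only [hb, hk])
        have kc : ∀ z, c z = c (0, 0) := IRRB.irr c cC.continuous c1 c2 _ hirr
          (fun t x y => by simp only [hc, hk])
        exact RAT.rat a b c aC bC cC a1 a2 b1 b2 c1 c2 hapos hdet 1 0 0 1 (by norm_num)
          (fun t x y => (ka _).trans (ka _).symm) (fun t x y => (kb _).trans (kb _).symm)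
          (fun t x y => (kc _).trans (kc _).symm)
      · rw [Irrational, not_not] at hirr
        obtain ⟨s, hs⟩ := hirr
        have hco : IsCoprime s.num (s.den : ℤ) := by
          rw [Int.isCoprime_iff_gcd_eq_one]
          exact s.reduced
        obtain ⟨v, u, hvu⟩ := hco
        have hden : ((s.den : ℤ) : ℝ) ≠ 0 := by
          have := s.den_ne_zero
          exact_mod_cast this
        have hj : ∀ t x y : ℝ, g (x + t * ((s.den : ℤ) : ℝ), y + t * ((s.num : ℤ) : ℝ))
            = g (x, y) := by
          intro t x y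
          have := hk (t * ((s.den : ℤ) : ℝ)) x y
          rw [← this]
          congr 2
          rw [← hs, Rat.cast_def]
          have hden2 : (s.den : ℝ) ≠ 0 := by exact_mod_cast s.den_ne_zero
          push_cast
          field_simp
        exact RAT.rat a b c aC bC cC a1 a2 b1 b2 c1 c2 hapos hdet s.num s.den u v
          (by rw [← hvu]; ring)
          (fun t x y => by simp only [ha, hj]) (fun t x y => by simp only [hb, hj])
          (fun t x y => by simp only [hc, hj])
  obtain ⟨f, hf, q1, q2, h⟩ := key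
  refine ⟨f, hf, ?_, ?_, ?_⟩
  · intro z
    have := q1 z.1 z.2
    rw [← this]
    congr 1
    ext <;> simp
  · intro z
    have := q2 z.1 z.2
    rw [← this]
    congr 1
    ext <;> simp
  · intro z v w
    rw [h z v w, form z v w]

end Vale.Agent.Results.P205.TranslationInvariantTorus
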